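import Vale.Agent.P074.Upper
import Vale.Agent.P074.Third

namespace Vale.Agent.Results.P074.ExponentThird

open Vale.Agent.P074

/-- In every dimension `d ≥ 2` the admissible exponents in `(0, 1]` are exactly those in
`(0, 1/3]`; in particular their supremum is `1/3` and it is attained. -/
theorem result : ∀ d : ℕ, 2 ≤ d →
    {α : ℝ | 0 < α ∧ α ≤ 1 ∧ Admissible d α} = {α : ℝ | 0 < α ∧ α ≤ 1 / 3} ∧
    IsGreatest {α : ℝ | 0 < α ∧ α ≤ 1 ∧ Admissible d α} (1 / 3) ∧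
    sSup {α : ℝ | 0 < α ∧ α ≤ 1 ∧ Admissible d α} = 1 / 3 := by
  intro d hd
  have hup : ∀ α : ℝ, Admissible d α → α ≤ 1 / 3 := by
    intro α h
    obtain ⟨n, rfl⟩ : ∃ n, d = n + 2 := ⟨d - 2, by omega⟩
    exact Upper.not_admissible n α h
  have hthird : Admissible d (1 / 3) := admissible_third (by omega)
  have hset : {α : ℝ | 0 < α ∧ α ≤ 1 ∧ Admissible d α} = {α : ℝ | 0 < α ∧ α ≤ 1 / 3} := by
    ext α
    constructor
    · rintro ⟨h0, _, h⟩
      exact ⟨h0, hup α h⟩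
    · rintro ⟨h0, h1⟩
      exact ⟨h0, by linarith, Admissible.mono h0 h1 hthird⟩
  have hgr : IsGreatest {α : ℝ | 0 < α ∧ α ≤ 1 ∧ Admissible d α} (1 / 3) := by
    rw [hset]
    exact ⟨⟨by norm_num, le_rfl⟩, fun α h => h.2⟩
  exact ⟨hset, hgr, hgr.csSup_eq⟩

end Vale.Agent.Results.P074.ExponentThird
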