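import Vale.Agent.P074.Upper

namespace Vale.Agent.Results.P074.UpperThird

open Vale.Agent.P074

/-- In every dimension `d ≥ 2`, every admissible exponent is at most `1/3`. -/
theorem result : ∀ d : ℕ, 2 ≤ d → ∀ α : ℝ, Admissible d α → α ≤ 1 / 3 := by
  intro d hd α h
  obtain ⟨n, rfl⟩ : ∃ n, d = n + 2 := ⟨d - 2, by omega⟩
  exact Upper.not_admissible n α h

end Vale.Agent.Results.P074.UpperThird
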